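import Vale.Agent.ThorpA.Stage1

/-!
# P162: the Thorp shuffle of `2 ^ d` cards mixes in `O(d ^ 2)` shuffles

`Vale.Agent.ThorpA.tmix n` is the mixing time (threshold `1/4`, total variation distance to the
uniform law on the whole symmetric group) of the Thorp shuffle of `n` cards.
-/

namespace Vale.Agent.Results.P162.LogSquared

open Vale.Agent.ThorpA

/-- There is an absolute constant `C` such that for every `d ≥ 1` the mixing time of the Thorp
shuffle of `2 ^ d` cards is at most `C * d ^ 2`, and the distance to uniform is at most `1/4` at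
the mixing time and at every later time. -/
theorem result : ∃ C : ℝ, ∀ d : ℕ, 1 ≤ d →
    (tmix (2 ^ d) : ℝ) ≤ C * (d : ℝ) ^ 2 ∧
      ∀ t : ℕ, tmix (2 ^ d) ≤ t → tvDist (2 ^ d) t ≤ 1 / 4 :=
  stage_one

end Vale.Agent.Results.P162.LogSquared
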