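import Vale.Agent.P162T.MixOrder

/-!
# P162: the mixing time of the Thorp shuffle of `n = 2 ^ d` cards has order `log n`

`Vale.Agent.ThorpA.tmix n` is the mixing time (threshold `1/4`, total variation distance to the
uniform law on the whole symmetric group, counted in single shuffles) of the Thorp shuffle of `n`
cards.
-/

namespace Vale.Agent.Results.P162.MixingOrder

open Vale.Agent.ThorpA

/-- There are absolute constants `0 < c` and `0 < C` with
`c * log (2 ^ d) ≤ t_mix (2 ^ d) ≤ C * log (2 ^ d)` for every `d ≥ 1`; moreover the total variation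
distance after `t` shuffles is at most `1/4` exactly when `t ≥ t_mix (2 ^ d)`. -/
theorem result : ∃ c C : ℝ, 0 < c ∧ 0 < C ∧ ∀ d : ℕ, 1 ≤ d →
    c * Real.log ((2 : ℝ) ^ d) ≤ (tmix (2 ^ d) : ℝ) ∧
      (tmix (2 ^ d) : ℝ) ≤ C * Real.log ((2 : ℝ) ^ d) ∧
      ∀ t : ℕ, tvDist (2 ^ d) t ≤ 1 / 4 ↔ tmix (2 ^ d) ≤ t :=
  Vale.Agent.P162T.mixing_order

end Vale.Agent.Results.P162.MixingOrder
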